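import Vale.Agent.P088.H198.K.Defs
import Vale.Agent.P088.H292.UPush
import Vale.Agent.P088.H641.BHad
import Vale.Agent.P088.H873.BTopo

/-!
# P088, theorem JB, row K_EN: the energy estimate from its analytic half
-/

open MeasureTheory Set Filter Topology
open scoped ContDiff Matrix

noncomputable section

namespace Vale.Agent.P088.H589

open Vale.Agent.P088.LR Vale.Agent.P088.LR.B Vale.Agent.P088.LR.CF Vale.Agent.P088.LR.U
  Vale.Agent.P088.LR.H158 Vale.Agent.P088.LR.K Vale.Agent.P088.H292.UP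

variable {n N : ℕ}

/-- The analytic half of the energy estimate. -/
def EnA : Prop := ∀ {n : ℕ} (N : ℕ) (ρ : V n → ℝ), 3 ≤ n → Dom ρ → ∃ a₀ C : ℝ, 0 < a₀ ∧ 0 < C ∧
  ∀ (σ : V n → ℝ) (t : MF n) (A₁ A : Cn n N), ContDiff ℝ ∞ σ → SmM t →
  (∀ x, (t x).IsSymm) → SmU A₁ → SmU A → (∀ x ∈ Om ρ, |σ x - 1| ≤ a₀) →
  (∀ x ∈ Om ρ, ∀ i j, |t x i j - dl i j| ≤ a₀) → (∀ x ∈ Om ρ, ∀ i α β, ‖A₁ i x α β‖ ≤ a₀) →
  (∀ x ∈ Om ρ, ∀ i α β, ‖A i x α β‖ ≤ a₀) →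
  ∀ u w ψ : V n → Fin N → ℂ, ContDiff ℝ ∞ u → ContDiff ℝ ∞ w → ContDiff ℝ ∞ ψ →
  (∀ x, w x = fun l => ((ρ x : ℝ) : ℂ) * ψ x l) →
  ea (Om ρ) t A w w = ea (Om ρ) t A u w - ea (Om ρ) (sc σ) A₁ u w →
  ‖ea (Om ρ) t A w w‖ ≤ C * ∫ x in Om ρ,
    ((∑ i, ∑ j, |t x i j - sc σ x i j| ^ 2) * ∑ j, ∑ l, ‖cd A₁ j u x l‖ ^ 2 +
      (∑ i, ∑ α, ∑ β, ‖A i x α β - A₁ i x α β‖ ^ 2) *
        ((∑ l, ‖u x l‖ ^ 2) + ρ x ^ 2 * ∑ j, ∑ l, ‖cd A₁ j u x l‖ ^ 2))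

theorem bounded_core : Bornology.IsBounded (core n) := by
  have : core n ⊆ Set.Icc (fun _ => (1 / 4 : ℝ)) (fun _ => (3 / 4 : ℝ)) := fun x hx =>
    ⟨fun j => (hx j).1, fun j => (hx j).2⟩
  exact (Metric.isBounded_Icc _ _).subset this

theorem smM_sc {σ : V n → ℝ} (hσ : ContDiff ℝ ∞ σ) : SmM (sc σ) := fun i j => by
  show ContDiff ℝ ∞ fun x => (σ x • (1 : Matrix (Fin n) (Fin n) ℝ)) i j
  simp only [Matrix.smul_apply, smul_eq_mul]
  exact hσ.mul contDiff_const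

theorem sc_symm (σ : V n → ℝ) (x : V n) : (sc σ x).IsSymm := by
  unfold Matrix.IsSymm sc
  rw [Matrix.transpose_smul, Matrix.transpose_one]

/-- (HAD) for vector functions -/
theorem hadV {ρ : V n → ℝ} (hρ : Dom ρ) {w : V n → Fin N → ℂ} (hw : ContDiff ℝ ∞ w)
    (h0 : ∀ x, ρ x = 0 → w x = 0) : ∃ ψ : V n → Fin N → ℂ, ContDiff ℝ ∞ ψ ∧
      ∀ x, w x = fun l => ((ρ x : ℝ) : ℂ) * ψ x l := by
  have hc : ∀ l, ContDiff ℝ ∞ fun x => w x l := fun l => contDiff_pi.1 hw l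
  have h1 : ∀ l, ∃ g : V n → ℝ, ContDiff ℝ ∞ g ∧ ∀ x, (w x l).re = ρ x * g x := fun l =>
    LR.B.H641.had hρ.sm hρ.nz (Complex.reCLM.contDiff.comp (hc l)) fun x hx => by
      show (w x l).re = 0
      rw [h0 x hx]; rfl
  have h2 : ∀ l, ∃ g : V n → ℝ, ContDiff ℝ ∞ g ∧ ∀ x, (w x l).im = ρ x * g x := fun l =>
    LR.B.H641.had hρ.sm hρ.nz (Complex.imCLM.contDiff.comp (hc l)) fun x hx => by
      show (w x l).im = 0
      rw [h0 x hx]; rfl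
  choose g hg hge using h1
  choose k hk hke using h2
  refine ⟨fun x l => (g l x : ℂ) + (k l x : ℂ) * Complex.I, ?_, ?_⟩
  · rw [contDiff_pi]
    intro l
    exact (Complex.ofRealCLM.contDiff.comp (hg l)).add
      ((Complex.ofRealCLM.contDiff.comp (hk l)).mul contDiff_const)
  · intro x
    funext l
    apply Complex.ext
    · simp [hge l x]
    · simp [hke l x]

/-- (K_EN) from its analytic half -/
theorem en_of (hA : EnA) : K.RowEN := by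
  intro n N ρ hn hρ
  obtain ⟨a₀, C, ha, hC, h⟩ := hA N ρ hn hρ
  refine ⟨a₀, C, ha, hC, ?_⟩
  intro σ t A₁ A sσ st ts sA₁ sA hσ1 ht1 hA1 hA2 hdat u su hu
  obtain ⟨hO, hcore, hfr, -, -, -⟩ := Vale.Agent.P088.H873.topo ρ hρ
  have hb : Bornology.IsBounded (Om ρ) := bounded_core.subset hcore
  obtain ⟨v, sv, hvu, hv, hE⟩ := hdat.2 u su hu
  set w : V n → Fin N → ℂ := fun x => u x - v x with hw
  have sw : ContDiff ℝ ∞ w := su.sub sv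
  have w0 : ∀ x ∈ frontier (Om ρ), w x = 0 := fun x hx => by
    rw [hw]
    show u x - v x = 0
    rw [hvu x hx, sub_self]
  have w0' : ∀ x, ρ x = 0 → w x = 0 := fun x hx => w0 x (by rw [hfr]; exact hx)
  obtain ⟨ψ, sψ, hψ⟩ := hadV hρ sw w0'
  have e1 : ea (Om ρ) t A u u - ea (Om ρ) t A v v = ea (Om ρ) t A w w := by
    have a1 : ea (Om ρ) t A w w = ea (Om ρ) t A w u - ea (Om ρ) t A w v :=
      ea_sub_right hb st sA sw su sv
    have a2 : ea (Om ρ) t A w v = 0 := wk2 hO hb st ts sA sv sw hv w0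
    have a3 : ea (Om ρ) t A w u = ea (Om ρ) t A u u - ea (Om ρ) t A v u :=
      ea_sub_left hb st sA su sv su
    have a4 : ea (Om ρ) t A v w = ea (Om ρ) t A v u - ea (Om ρ) t A v v :=
      ea_sub_right hb st sA sv su sv
    have a5 : ea (Om ρ) t A v w = 0 := wk1 hO hb st ts sA sv sw hv w0
    rw [a5] at a4
    rw [a1, a2, a3]
    linear_combination (-1 : ℂ) * a4
  have e2 : ea (Om ρ) t A w w = ea (Om ρ) t A u w - ea (Om ρ) (sc σ) A₁ u w := by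
    have a1 : ea (Om ρ) t A w w = ea (Om ρ) t A u w - ea (Om ρ) t A v w :=
      ea_sub_left hb st sA su sv sw
    have a2 : ea (Om ρ) t A v w = 0 := wk1 hO hb st ts sA sv sw hv w0
    have a3 : ea (Om ρ) (sc σ) A₁ u w = 0 :=
      wk1 hO hb (smM_sc sσ) (sc_symm σ) sA₁ su sw hu w0
    rw [a1, a2, a3]
  have h3 := h σ t A₁ A sσ st ts sA₁ sA hσ1 ht1 hA1 hA2 u w ψ su sw sψ hψ e2
  rw [← hE, e1]
  exact h3

end Vale.Agent.P088.H589
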