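import Vale.Agent.P088.H589.KEn

/-!
# P088, theorem JB, row K_EN: the analytic half of the energy estimate
-/

open MeasureTheory Set Filter Topology
open scoped ContDiff Matrix

noncomputable section

namespace Vale.Agent.P088.H589

open Vale.Agent.P088.LR Vale.Agent.P088.LR.B Vale.Agent.P088.LR.CF Vale.Agent.P088.LR.U
  Vale.Agent.P088.LR.H158 Vale.Agent.P088.LR.K Vale.Agent.P088.H292.UP

variable {n N : ℕ}

def s2 (u : Fin N → ℂ) : ℝ := ∑ l, ‖u l‖ ^ 2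

def sq (p : Fin n → Fin N → ℂ) : ℝ := ∑ j, ∑ l, ‖p j l‖ ^ 2

def f2 (h : Matrix (Fin n) (Fin n) ℝ) : ℝ := ∑ i, ∑ j, |h i j| ^ 2

def m2 (α : Fin n → Matrix (Fin N) (Fin N) ℂ) : ℝ := ∑ i, ∑ a, ∑ b, ‖α i a b‖ ^ 2

theorem s2_nonneg (u : Fin N → ℂ) : 0 ≤ s2 u := Finset.sum_nonneg fun _ _ => sq_nonneg _

theorem sq_nn (p : Fin n → Fin N → ℂ) : 0 ≤ sq p :=
  Finset.sum_nonneg fun _ _ => Finset.sum_nonneg fun _ _ => sq_nonneg _

theorem f2_nonneg (h : Matrix (Fin n) (Fin n) ℝ) : 0 ≤ f2 h :=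
  Finset.sum_nonneg fun _ _ => Finset.sum_nonneg fun _ _ => sq_nonneg _

theorem m2_nonneg (α : Fin n → Matrix (Fin N) (Fin N) ℂ) : 0 ≤ m2 α :=
  Finset.sum_nonneg fun _ _ => Finset.sum_nonneg fun _ _ => Finset.sum_nonneg fun _ _ =>
    sq_nonneg _

theorem sq_eq (p : Fin n → Fin N → ℂ) : sq p = ∑ j, s2 (p j) := rfl

theorem dot_le (p q : Fin N → ℂ) : ‖p ⬝ᵥ star q‖ ^ 2 ≤ s2 p * s2 q := by
  have h1 : ‖p ⬝ᵥ star q‖ ≤ ∑ l, ‖p l‖ * ‖q l‖ := by
    unfold dotProduct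
    refine (norm_sum_le _ _).trans (le_of_eq ?_)
    refine Finset.sum_congr rfl fun l _ => ?_
    rw [norm_mul, Pi.star_apply, norm_star]
  calc ‖p ⬝ᵥ star q‖ ^ 2 ≤ (∑ l, ‖p l‖ * ‖q l‖) ^ 2 := pow_le_pow_left₀ (norm_nonneg _) h1 2
    _ ≤ s2 p * s2 q := Finset.sum_mul_sq_le_sq_mul_sq _ _ _

theorem qf_le (h : Matrix (Fin n) (Fin n) ℝ) (p q : Fin n → Fin N → ℂ) :
    ‖qf h p q‖ ^ 2 ≤ f2 h * (sq p * sq q) := by
  have h1 : ‖qf h p q‖ ≤ ∑ x : Fin n × Fin n, |h x.1 x.2| * ‖p x.1 ⬝ᵥ star (q x.2)‖ := by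
    rw [Fintype.sum_prod_type]
    unfold qf
    refine (norm_sum_le _ _).trans (Finset.sum_le_sum fun i _ => ?_)
    refine (norm_sum_le _ _).trans (Finset.sum_le_sum fun j _ => ?_)
    rw [norm_mul, Complex.norm_real, Real.norm_eq_abs]
  have h2 : (∑ x : Fin n × Fin n, |h x.1 x.2| * ‖p x.1 ⬝ᵥ star (q x.2)‖) ^ 2 ≤
      (∑ x : Fin n × Fin n, |h x.1 x.2| ^ 2) * ∑ x : Fin n × Fin n,
        ‖p x.1 ⬝ᵥ star (q x.2)‖ ^ 2 := Finset.sum_mul_sq_le_sq_mul_sq _ _ _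
  have h3 : ∑ x : Fin n × Fin n, |h x.1 x.2| ^ 2 = f2 h := Fintype.sum_prod_type _
  have h4 : ∑ x : Fin n × Fin n, ‖p x.1 ⬝ᵥ star (q x.2)‖ ^ 2 ≤ sq p * sq q := by
    calc ∑ x : Fin n × Fin n, ‖p x.1 ⬝ᵥ star (q x.2)‖ ^ 2
        ≤ ∑ x : Fin n × Fin n, s2 (p x.1) * s2 (q x.2) :=
          Finset.sum_le_sum fun x _ => dot_le _ _
      _ = sq p * sq q := by
          rw [Fintype.sum_prod_type, sq_eq, sq_eq, Finset.sum_mul_sum]
  calc ‖qf h p q‖ ^ 2 ≤ _ := pow_le_pow_left₀ (norm_nonneg _) h1 2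
    _ ≤ _ := h2
    _ ≤ f2 h * (sq p * sq q) := by
        rw [h3]
        exact mul_le_mul_of_nonneg_left h4 (f2_nonneg h)

theorem young {a X Y δ : ℝ} (ha : 0 ≤ a) (hX : 0 ≤ X) (hY : 0 ≤ Y) (hδ : 0 < δ)
    (h : a ^ 2 ≤ X * Y) : a ≤ δ / 2 * Y + 1 / (2 * δ) * X := by
  have hb : 0 ≤ δ / 2 * Y + 1 / (2 * δ) * X := by positivity
  refine (pow_le_pow_iff_left₀ ha hb two_ne_zero).1 (h.trans ?_)
  have h1 : (δ / 2 * Y + 1 / (2 * δ) * X) ^ 2 - X * Y = (δ / 2 * Y - 1 / (2 * δ) * X) ^ 2 := by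
    field_simp
    ring
  nlinarith [sq_nonneg (δ / 2 * Y - 1 / (2 * δ) * X)]

theorem mv_le (α : Matrix (Fin N) (Fin N) ℂ) (u : Fin N → ℂ) :
    s2 (α *ᵥ u) ≤ (∑ a, ∑ b, ‖α a b‖ ^ 2) * s2 u := by
  unfold s2
  rw [Finset.sum_mul]
  refine Finset.sum_le_sum fun a _ => ?_
  have h1 : ‖(α *ᵥ u) a‖ ≤ ∑ b, ‖α a b‖ * ‖u b‖ := by
    unfold Matrix.mulVec dotProduct
    refine (norm_sum_le _ _).trans (le_of_eq ?_)
    exact Finset.sum_congr rfl fun l _ => norm_mul _ _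
  exact (pow_le_pow_left₀ (norm_nonneg _) h1 2).trans (Finset.sum_mul_sq_le_sq_mul_sq _ _ _)

theorem sq_mv (α : Fin n → Matrix (Fin N) (Fin N) ℂ) (u : Fin N → ℂ) :
    sq (fun i => α i *ᵥ u) ≤ m2 α * s2 u := by
  rw [sq_eq]
  unfold m2
  rw [Finset.sum_mul]
  exact Finset.sum_le_sum fun i _ => mv_le _ _

theorem qf_split (t s : Matrix (Fin n) (Fin n) ℝ) (P a Q b : Fin n → Fin N → ℂ) :
    qf t (fun i => P i + a i) Q - qf s P (fun j => Q j - b j) =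
      qf (t - s) P Q + qf t a Q + qf s P b := by
  unfold qf
  simp only [← Finset.sum_add_distrib, ← Finset.sum_sub_distrib]
  refine Finset.sum_congr rfl fun i _ => Finset.sum_congr rfl fun j _ => ?_
  rw [add_dotProduct, star_sub, dotProduct_sub, Matrix.sub_apply]
  push_cast
  ring

theorem qf_one (Q : Fin n → Fin N → ℂ) : qf 1 Q Q = ((sq Q : ℝ) : ℂ) := by
  unfold qf sq
  rw [Complex.ofReal_sum]
  refine Finset.sum_congr rfl fun i _ => ?_
  rw [Finset.sum_eq_single i]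
  · rw [Matrix.one_apply_eq, Complex.ofReal_one, one_mul, Complex.ofReal_sum]
    unfold dotProduct
    refine Finset.sum_congr rfl fun l _ => ?_
    rw [Pi.star_apply]
    show Q i l * (starRingEnd ℂ) (Q i l) = _
    rw [Complex.mul_conj, Complex.normSq_eq_norm_sq]
  · intro j _ hj
    rw [Matrix.one_apply_ne hj.symm]
    simp
  · intro hi
    exact absurd (Finset.mem_univ i) hi

theorem coer {t : Matrix (Fin n) (Fin n) ℝ} (ht : f2 (t - 1) ≤ 1 / 4) (Q : Fin n → Fin N → ℂ) :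
    sq Q ≤ 2 * (qf t Q Q).re := by
  have h1 : qf t Q Q = qf (t - 1) Q Q + qf 1 Q Q := by
    unfold qf
    simp only [← Finset.sum_add_distrib]
    refine Finset.sum_congr rfl fun i _ => Finset.sum_congr rfl fun j _ => ?_
    rw [Matrix.sub_apply]
    push_cast
    ring
  have h2 : ‖qf (t - 1) Q Q‖ ≤ 1 / 2 * sq Q := by
    have h3 := qf_le (t - 1) Q Q
    have h4 : ‖qf (t - 1) Q Q‖ ^ 2 ≤ (1 / 2 * sq Q) ^ 2 := by
      refine h3.trans ?_
      have h5 : 0 ≤ sq Q * sq Q := mul_self_nonneg _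
      nlinarith
    exact (pow_le_pow_iff_left₀ (norm_nonneg _) (by have := sq_nn Q; positivity) two_ne_zero).1 h4
  have h3 : -(1 / 2 * sq Q) ≤ (qf (t - 1) Q Q).re := by
    have := Complex.abs_re_le_norm (qf (t - 1) Q Q)
    have := neg_abs_le (qf (t - 1) Q Q).re
    linarith
  rw [h1, qf_one, Complex.add_re, Complex.ofReal_re]
  linarith

theorem f2_bd {h : Matrix (Fin n) (Fin n) ℝ} {c : ℝ} (hh : ∀ i j, |h i j| ≤ c) :
    f2 h ≤ (n * c) ^ 2 := by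
  calc f2 h ≤ ∑ _i : Fin n, ∑ _j : Fin n, c ^ 2 :=
        Finset.sum_le_sum fun i _ => Finset.sum_le_sum fun j _ =>
          pow_le_pow_left₀ (abs_nonneg _) (hh i j) 2
    _ = (n * c) ^ 2 := by simp; ring

theorem m2_bd {α : Fin n → Matrix (Fin N) (Fin N) ℂ} {c : ℝ} (hh : ∀ i a b, ‖α i a b‖ ≤ c) :
    m2 α ≤ n * N ^ 2 * c ^ 2 := by
  calc m2 α ≤ ∑ _i : Fin n, ∑ _a : Fin N, ∑ _b : Fin N, c ^ 2 :=
        Finset.sum_le_sum fun i _ => Finset.sum_le_sum fun a _ => Finset.sum_le_sum fun b _ =>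
          pow_le_pow_left₀ (norm_nonneg _) (hh i a b) 2
    _ = n * N ^ 2 * c ^ 2 := by simp; ring

theorem intR {Ω : Set (V n)} (hb : Bornology.IsBounded Ω) {f : V n → ℝ} (hf : Continuous f) :
    IntegrableOn f Ω :=
  (hf.continuousOn.integrableOn_compact hb.isCompact_closure).mono_set subset_closure

/-- pointwise inequality -/
theorem ptw {t s : Matrix (Fin n) (Fin n) ℝ} (hn : 1 ≤ n) {δ r : ℝ} (hδ : 0 < δ)
    (ht : f2 t ≤ (n * 2) ^ 2) (hs : f2 s ≤ (n * 2) ^ 2) (P Q : Fin n → Fin N → ℂ)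
    (α : Fin n → Matrix (Fin N) (Fin N) ℂ) (u w ψ : Fin N → ℂ) (hw : s2 w ≤ r ^ 2 * s2 ψ) :
    ‖qf t (fun i => P i + α i *ᵥ u) Q - qf s P (fun j => Q j - α j *ᵥ w)‖ ≤
      δ * (sq Q + s2 ψ) + 2 * n ^ 2 / δ * (f2 (t - s) * sq P + m2 α * (s2 u + r ^ 2 * sq P)) := by
  rw [qf_split]
  have nQ := sq_nn Q
  have nP := sq_nn P
  have nm := m2_nonneg α
  have nu := s2_nonneg u
  have nw := s2_nonneg w
  have nψ := s2_nonneg ψ
  have nf := f2_nonneg (t - s)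
  have nt := f2_nonneg t
  have ns := f2_nonneg s
  have h1 : ‖qf (t - s) P Q‖ ≤ δ / 2 * sq Q + 1 / (2 * δ) * (f2 (t - s) * sq P) :=
    young (norm_nonneg _) (by positivity) nQ hδ ((qf_le _ _ _).trans (le_of_eq (by ring)))
  have h2 : ‖qf t (fun i => α i *ᵥ u) Q‖ ≤
      δ / 2 * sq Q + 1 / (2 * δ) * ((n * 2) ^ 2 * (m2 α * s2 u)) := by
    refine young (norm_nonneg _) (by positivity) nQ hδ ((qf_le _ _ _).trans ?_)
    rw [← mul_assoc]
    refine mul_le_mul_of_nonneg_right ?_ nQ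
    exact mul_le_mul ht (sq_mv α u) (sq_nn _) (by positivity)
  have h3 : ‖qf s P (fun j => α j *ᵥ w)‖ ≤
      δ / 2 * s2 ψ + 1 / (2 * δ) * ((n * 2) ^ 2 * (m2 α * (r ^ 2 * sq P))) := by
    refine young (norm_nonneg _) (by positivity) nψ hδ ((qf_le _ _ _).trans ?_)
    have h4 : sq (fun j => α j *ᵥ w) ≤ m2 α * (r ^ 2 * s2 ψ) :=
      (sq_mv α w).trans (mul_le_mul_of_nonneg_left hw nm)
    calc f2 s * (sq P * sq fun j => α j *ᵥ w)
        ≤ (n * 2) ^ 2 * (sq P * (m2 α * (r ^ 2 * s2 ψ))) :=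
          mul_le_mul hs (mul_le_mul_of_nonneg_left h4 nP) (mul_nonneg nP (sq_nn _)) (by positivity)
      _ = (n * 2) ^ 2 * (m2 α * (r ^ 2 * sq P)) * s2 ψ := by ring
  have h5 : ‖qf (t - s) P Q + qf t (fun i => α i *ᵥ u) Q + qf s P (fun j => α j *ᵥ w)‖ ≤
      ‖qf (t - s) P Q‖ + ‖qf t (fun i => α i *ᵥ u) Q‖ + ‖qf s P (fun j => α j *ᵥ w)‖ :=
    norm_add₃_le
  have hn1 : (1 : ℝ) ≤ n := by exact_mod_cast hn
  have h6 : 1 / (2 * δ) * (f2 (t - s) * sq P) ≤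
      1 / (2 * δ) * ((n * 2) ^ 2 * (f2 (t - s) * sq P)) := by
    refine mul_le_mul_of_nonneg_left ?_ (by positivity)
    have h7 : 0 ≤ f2 (t - s) * sq P := mul_nonneg nf nP
    have h10 : (1 : ℝ) ≤ (n * 2) ^ 2 := by nlinarith
    exact le_mul_of_one_le_left h7 h10
  have h8 : 1 / (2 * δ) * ((n * 2) ^ 2 * (f2 (t - s) * sq P)) +
      1 / (2 * δ) * ((n * 2) ^ 2 * (m2 α * s2 u)) +
      1 / (2 * δ) * ((n * 2) ^ 2 * (m2 α * (r ^ 2 * sq P))) =
      2 * n ^ 2 / δ * (f2 (t - s) * sq P + m2 α * (s2 u + r ^ 2 * sq P)) := by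
    field_simp
    ring
  have h9 : 0 ≤ δ / 2 * s2 ψ := by positivity
  linarith

theorem cont_sq {A : Cn n N} (hA : SmU A) {w : V n → Fin N → ℂ} (hw : ContDiff ℝ ∞ w) :
    Continuous fun x => sq (fun i => cd A i w x) := by
  unfold sq
  refine continuous_finsetSum _ fun i _ => continuous_finsetSum _ fun l _ => ?_
  exact ((continuous_pi_iff.1 (contDiff_cd hA hw i).continuous) l).norm.pow 2

theorem cont_s2 {w : V n → Fin N → ℂ} (hw : ContDiff ℝ ∞ w) :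
    Continuous fun x => s2 (w x) := by
  unfold s2
  refine continuous_finsetSum _ fun l _ => ?_
  exact ((continuous_pi_iff.1 hw.continuous) l).norm.pow 2

theorem cd_diff (A B : Cn n N) (i : Fin n) (u : V n → Fin N → ℂ) (x : V n) :
    cd A i u x = cd B i u x + (A i x - B i x) *ᵥ u x := by
  unfold cd
  rw [Matrix.sub_mulVec]
  abel

/-- gradient of the components -/
theorem grad_le {A : Cn n N} {w : V n → Fin N → ℂ} (hw : ContDiff ℝ ∞ w) (x : V n) :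
    ∑ l, ∑ i, ‖pd i (fun y => w y l) x‖ ^ 2 ≤
      2 * sq (fun i => cd A i w x) + 2 * (m2 (fun i => A i x) * s2 (w x)) := by
  have h1 : ∀ l i, ‖pd i (fun y => w y l) x‖ ^ 2 ≤
      2 * ‖cd A i w x l‖ ^ 2 + 2 * ‖(A i x *ᵥ w x) l‖ ^ 2 := by
    intro l i
    have h2 : pd i (fun y => w y l) x = cd A i w x l - (A i x *ᵥ w x) l := by
      unfold cd
      rw [Pi.add_apply, H158.pd_pi (dfa hw x) i l]
      ring
    rw [h2]
    have h3 := norm_sub_le (cd A i w x l) ((A i x *ᵥ w x) l)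
    have h4 := pow_le_pow_left₀ (norm_nonneg _) h3 2
    nlinarith [sq_nonneg (‖cd A i w x l‖ - ‖(A i x *ᵥ w x) l‖)]
  have h5 := sq_mv (fun i => A i x) (w x)
  calc ∑ l, ∑ i, ‖pd i (fun y => w y l) x‖ ^ 2
      ≤ ∑ l, ∑ i, (2 * ‖cd A i w x l‖ ^ 2 + 2 * ‖(A i x *ᵥ w x) l‖ ^ 2) :=
        Finset.sum_le_sum fun l _ => Finset.sum_le_sum fun i _ => h1 l i
    _ = 2 * sq (fun i => cd A i w x) + 2 * sq (fun i => A i x *ᵥ w x) := by
        rw [Finset.sum_comm]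
        unfold sq
        rw [Finset.mul_sum, Finset.mul_sum, ← Finset.sum_add_distrib]
        refine Finset.sum_congr rfl fun i _ => ?_
        rw [Finset.mul_sum, Finset.mul_sum, ← Finset.sum_add_distrib]
    _ ≤ _ := by linarith

theorem enA (hH : RowHDY) : EnA := by
  intro n N ρ hn hρ
  obtain ⟨hO, hcore, hfr, -, -, -⟩ := Vale.Agent.P088.H873.topo ρ hρ
  have hb : Bornology.IsBounded (Om ρ) := bounded_core.subset hcore
  obtain ⟨H, hH0, hH1⟩ := hH ρ hn hρ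
  obtain ⟨M, hM⟩ := hb.isCompact_closure.exists_bound_of_continuousOn
    (f := ρ) hρ.sm.continuous.continuousOn
  have hM' : ∀ x ∈ Om ρ, ρ x ^ 2 ≤ M ^ 2 := fun x hx => by
    have h1 := hM x (subset_closure hx)
    rw [Real.norm_eq_abs] at h1
    rw [← sq_abs (ρ x)]
    exact pow_le_pow_left₀ (abs_nonneg _) h1 2
  have hn1 : (1 : ℝ) ≤ n := by exact_mod_cast (by omega : 1 ≤ n)
  set T : ℝ := 4 * H * (n * N ^ 2 * M ^ 2) with hT
  have hT0 : 0 ≤ T := by positivity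
  set a₀ : ℝ := 1 / (2 * n * (1 + T)) with ha₀
  have ha0 : 0 < a₀ := by positivity
  have hna : n * a₀ ≤ 1 / 2 := by
    rw [ha₀, mul_one_div, div_le_div_iff₀ (by positivity) (by norm_num)]
    nlinarith
  have ha1 : a₀ ≤ 1 := by nlinarith
  have hTa : T * a₀ ^ 2 ≤ 1 := by
    have h1 : T * a₀ ≤ 1 := by
      rw [ha₀, mul_one_div, div_le_one (by positivity)]
      nlinarith
    nlinarith
  set δ : ℝ := 1 / (4 * (1 + 4 * H)) with hδ'
  have hδ : 0 < δ := by positivity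
  refine ⟨a₀, 2 * (2 * n ^ 2 / δ), ha0, by positivity, ?_⟩
  intro σ t A₁ A sσ st ts sA₁ sA hσ1 ht1 hA1 hA2 u w ψ su sw sψ hwψ he
  set R : V n → ℝ := fun x =>
    ((∑ i, ∑ j, |t x i j - sc σ x i j| ^ 2) * ∑ j, ∑ l, ‖cd A₁ j u x l‖ ^ 2 +
      (∑ i, ∑ α, ∑ β, ‖A i x α β - A₁ i x α β‖ ^ 2) *
        ((∑ l, ‖u x l‖ ^ 2) + ρ x ^ 2 * ∑ j, ∑ l, ‖cd A₁ j u x l‖ ^ 2)) with hR
  have ssσ := smM_sc (n := n) sσ
  have cR : Continuous R := by
    have c1 : Continuous fun x => ∑ i, ∑ j, |t x i j - sc σ x i j| ^ 2 :=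
      continuous_finsetSum _ fun i _ => continuous_finsetSum _ fun j _ =>
        (((st i j).continuous.sub (ssσ i j).continuous).abs).pow 2
    have c2 : Continuous fun x => ∑ i, ∑ α, ∑ β, ‖A i x α β - A₁ i x α β‖ ^ 2 :=
      continuous_finsetSum _ fun i _ => continuous_finsetSum _ fun α _ =>
        continuous_finsetSum _ fun β _ =>
          (((sA.1 i α β).continuous.sub (sA₁.1 i α β).continuous).norm).pow 2
    exact (c1.mul (cont_sq sA₁ su)).add (c2.mul ((cont_s2 su).add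
      ((hρ.sm.continuous.pow 2).mul (cont_sq sA₁ su))))
  -- pointwise bounds on the coefficients
  have hs2 : ∀ x ∈ Om ρ, f2 (sc σ x) ≤ (n * 2) ^ 2 := fun x hx => f2_bd fun i j => by
    have h1 := hσ1 x hx
    have h2 : |σ x| ≤ 2 := by
      have := abs_sub_abs_le_abs_sub (σ x) 1
      rw [abs_one] at this
      linarith
    show |σ x * (1 : Matrix (Fin n) (Fin n) ℝ) i j| ≤ 2
    rw [abs_mul, Matrix.one_apply]
    split_ifs
    · simpa using h2
    · simp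
  have ht2 : ∀ x ∈ Om ρ, f2 (t x) ≤ (n * 2) ^ 2 := fun x hx => f2_bd fun i j => by
    have h1 := ht1 x hx i j
    have h2 : |dl i j| ≤ 1 := by
      unfold dl
      rw [Matrix.one_apply]
      split_ifs <;> simp
    have := abs_sub_abs_le_abs_sub (t x i j) (dl i j)
    linarith
  have ht3 : ∀ x ∈ Om ρ, f2 (t x - 1) ≤ 1 / 4 := fun x hx => by
    have h1 : f2 (t x - 1) ≤ (n * a₀) ^ 2 := f2_bd fun i j => by
      rw [Matrix.sub_apply]
      exact ht1 x hx i j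
    have h2 : (n * a₀) ^ 2 ≤ (1 / 2) ^ 2 := pow_le_pow_left₀ (by positivity) hna 2
    linarith
  have hm : ∀ x ∈ Om ρ, m2 (fun i => A i x) ≤ n * N ^ 2 * a₀ ^ 2 := fun x hx =>
    m2_bd fun i a b => hA2 x hx i a b
  have hws : ∀ x, s2 (w x) = ρ x ^ 2 * s2 (ψ x) := fun x => by
    rw [hwψ x]
    unfold s2
    rw [Finset.mul_sum]
    refine Finset.sum_congr rfl fun l _ => ?_
    rw [norm_mul, mul_pow, Complex.norm_real, Real.norm_eq_abs, sq_abs]
  -- integrals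
  set IQ : ℝ := ∫ x in Om ρ, sq (fun i => cd A i w x) with hIQ
  set Iψ : ℝ := ∫ x in Om ρ, s2 (ψ x) with hIψ
  set IR : ℝ := ∫ x in Om ρ, R x with hIR
  have iQ := intR hb (cont_sq sA sw)
  have iψ := intR hb (cont_s2 sψ)
  have iR := intR hb cR
  have iQψ : IntegrableOn (fun x => sq (fun i => cd A i w x) + s2 (ψ x)) (Om ρ) :=
    intR hb ((cont_sq sA sw).add (cont_s2 sψ))
  have IQ0 : 0 ≤ IQ := integral_nonneg fun x => sq_nn _
  -- coercivity
  have k1 : IQ ≤ 2 * ‖ea (Om ρ) t A w w‖ := by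
    have c1 := qf_cont' st sA sw sw
    have h1 : (ea (Om ρ) t A w w).re =
        ∫ x in Om ρ, (qf (t x) (fun i => cd A i w x) (fun i => cd A i w x)).re := by
      rw [ea_eq]
      exact (integral_re (𝕜 := ℂ) (intOn hb c1)).symm
    have h2 : IQ ≤ 2 * (ea (Om ρ) t A w w).re := by
      rw [h1, ← integral_const_mul]
      refine setIntegral_mono_on iQ (intR hb ((Complex.continuous_re.comp c1).const_mul 2))
        hO.measurableSet fun x hx => coer (ht3 x hx) _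
    exact h2.trans (mul_le_mul_of_nonneg_left (Complex.re_le_norm _) (by norm_num))
  -- Hardy
  have k2 : Iψ ≤ 4 * H * IQ := by
    have h1 : Iψ = ∑ l, ∫ x in Om ρ, ‖ψ x l‖ ^ 2 := by
      rw [hIψ]
      unfold s2
      exact integral_finsetSum _ fun l _ =>
        intR hb (((continuous_pi_iff.1 sψ.continuous) l).norm.pow 2)
    have cg : ∀ l, Continuous fun x => ∑ i, ‖pd i (fun y => w y l) x‖ ^ 2 := fun l =>
      continuous_finsetSum _ fun i _ =>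
        (H158.contDiff_pd (contDiff_pi.1 sw l) i).continuous.norm.pow 2
    have h2 : ∀ l, ∫ x in Om ρ, ‖ψ x l‖ ^ 2 ≤
        H * ∫ x in Om ρ, ∑ i, ‖pd i (fun y => w y l) x‖ ^ 2 := fun l => by
      have h3 := hH1 (fun x => ψ x l) (contDiff_pi.1 sψ l)
      have h4 : (fun y => ((ρ y : ℝ) : ℂ) * ψ y l) = fun y => w y l := by
        funext y
        rw [hwψ y]
      rw [h4] at h3
      exact h3
    have h3 : Iψ ≤ H * ∫ x in Om ρ, ∑ l, ∑ i, ‖pd i (fun y => w y l) x‖ ^ 2 := by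
      rw [h1, integral_finsetSum _ fun l _ => intR hb (cg l), Finset.mul_sum]
      exact Finset.sum_le_sum fun l _ => h2 l
    have h4 : ∫ x in Om ρ, ∑ l, ∑ i, ‖pd i (fun y => w y l) x‖ ^ 2 ≤
        2 * IQ + 2 * (n * N ^ 2 * M ^ 2 * a₀ ^ 2) * Iψ := by
      rw [hIQ, hIψ, ← integral_const_mul, ← integral_const_mul,
        ← integral_add (iQ.const_mul 2) (iψ.const_mul _)]
      refine setIntegral_mono_on (intR hb (continuous_finsetSum _ fun l _ => cg l))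
        ((iQ.const_mul 2).add (iψ.const_mul _)) hO.measurableSet fun x hx => ?_
      refine (grad_le (A := A) sw x).trans ?_
      have h5 : m2 (fun i => A i x) * s2 (w x) ≤ n * N ^ 2 * M ^ 2 * a₀ ^ 2 * s2 (ψ x) := by
        rw [hws x]
        have h6 := s2_nonneg (ψ x)
        calc m2 (fun i => A i x) * (ρ x ^ 2 * s2 (ψ x))
            ≤ (n * N ^ 2 * a₀ ^ 2) * (M ^ 2 * s2 (ψ x)) :=
              mul_le_mul (hm x hx) (mul_le_mul_of_nonneg_right (hM' x hx) h6)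
                (by positivity) (by positivity)
          _ = _ := by ring
      show _ ≤ 2 * sq (fun i => cd A i w x) + 2 * (n * N ^ 2 * M ^ 2 * a₀ ^ 2) * s2 (ψ x)
      linarith
    have Iψ0 : 0 ≤ Iψ := integral_nonneg fun x => s2_nonneg _
    have h5 : H * (2 * (n * N ^ 2 * M ^ 2 * a₀ ^ 2) * Iψ) = T * a₀ ^ 2 / 2 * Iψ := by
      rw [hT]; ring
    have h6 : Iψ ≤ 2 * H * IQ + T * a₀ ^ 2 / 2 * Iψ := by
      rw [← h5]
      refine h3.trans ((mul_le_mul_of_nonneg_left h4 hH0.le).trans (le_of_eq ?_))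
      ring
    nlinarith
  -- the main estimate
  have k3 : ‖ea (Om ρ) t A w w‖ ≤ δ * (IQ + Iψ) + 2 * n ^ 2 / δ * IR := by
    have c1 := qf_cont' st sA su sw
    have c2 := qf_cont' ssσ sA₁ su sw
    have h1 : ea (Om ρ) t A w w = ∫ x in Om ρ,
        (qf (t x) (fun i => cd A i u x) (fun i => cd A i w x) -
          qf (sc σ x) (fun i => cd A₁ i u x) (fun i => cd A₁ i w x)) := by
      rw [he, ea_eq, ea_eq, ← integral_sub (intOn hb c1) (intOn hb c2)]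
    rw [h1]
    refine (norm_integral_le_integral_norm _).trans ?_
    have h2 : δ * (IQ + Iψ) + 2 * n ^ 2 / δ * IR = ∫ x in Om ρ,
        (δ * (sq (fun i => cd A i w x) + s2 (ψ x)) + 2 * n ^ 2 / δ * R x) := by
      rw [integral_add (iQψ.const_mul δ) (iR.const_mul _), integral_const_mul,
        integral_const_mul, integral_add iQ iψ]
    rw [h2]
    refine setIntegral_mono_on (intR hb (c1.sub c2).norm)
      ((iQψ.const_mul δ).add (iR.const_mul _)) hO.measurableSet fun x hx => ?_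
    have h3 := ptw (by omega : 1 ≤ n) hδ (ht2 x hx) (hs2 x hx) (fun i => cd A₁ i u x)
      (fun i => cd A i w x) (fun i => A i x - A₁ i x) (u x) (w x) (ψ x) (hws x).le
    have h4 : (fun i => cd A₁ i u x + (A i x - A₁ i x) *ᵥ u x) = fun i => cd A i u x := by
      funext i
      rw [← cd_diff]
    have h5 : (fun j => cd A j w x - (A j x - A₁ j x) *ᵥ w x) = fun j => cd A₁ j w x := by
      funext j
      rw [cd_diff A A₁]
      abel
    rw [h4, h5] at h3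
    exact h3
  have k4 : δ * (IQ + Iψ) ≤ 1 / 2 * ‖ea (Om ρ) t A w w‖ := by
    have h1 : IQ + Iψ ≤ (1 + 4 * H) * (2 * ‖ea (Om ρ) t A w w‖) := by
      have : IQ + Iψ ≤ (1 + 4 * H) * IQ := by linarith
      exact this.trans (mul_le_mul_of_nonneg_left k1 (by positivity))
    refine (mul_le_mul_of_nonneg_left h1 hδ.le).trans (le_of_eq ?_)
    rw [hδ']
    field_simp
    ring
  show ‖ea (Om ρ) t A w w‖ ≤ 2 * (2 * n ^ 2 / δ) * IR
  linarith

/-- row K_EN -/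
theorem en (hH : RowHDY) : K.RowEN := en_of (enA hH)

end Vale.Agent.P088.H589
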